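import Mathlib

/-!
# R193/W/Ent: an injective entire function that is proper is affine
-/

set_option autoImplicit false
open Set Metric Filter Topology Bornology

namespace Crest.Agent.R193

theorem entire_inj_affine {H : ℂ → ℂ} (hd : Differentiable ℂ H) (hi : Function.Injective H)
    (ht : Tendsto H (cobounded ℂ) (cobounded ℂ)) :
    ∃ α β : ℂ, α ≠ 0 ∧ ∀ z, H z = α * z + β := by
  set G : ℂ → ℂ := fun z => H z - H 0 with hG
  have hGd : Differentiable ℂ G := hd.sub_const _
  have hG0 : G 0 = 0 := sub_self _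
  have hGne : ∀ z, z ≠ 0 → G z ≠ 0 := fun z hz h => hz (hi (sub_eq_zero.1 h))
  have hGt : Tendsto G (cobounded ℂ) (cobounded ℂ) := (tendsto_sub_const_cobounded _).comp ht
  have hne : ∀ {φ : ℂ → ℂ}, (∀ z, z ≠ 0 → φ z ≠ 0) → ¬ ∀ᶠ z in 𝓝 0, φ z = 0 := by
    intro φ hφ hev
    have := (hev.filter_mono nhdsWithin_le_nhds).and (self_mem_nhdsWithin (s := {0}ᶜ))
    obtain ⟨z, hz, hz0⟩ := this.exists
    exact hφ z hz0 hz
  obtain ⟨m, g, hg, hg0, hgm⟩ :=
    (hGd.analyticAt 0).exists_eventuallyEq_pow_smul_nonzero_iff.2 (hne hGne)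
  classical
  set u : ℂ → ℂ := fun z => if z = 0 then g 0 else G z / z ^ m with hu
  have hu0 : ∀ z, u z ≠ 0 := by
    intro z
    by_cases hz : z = 0
    · simpa [hu, hz] using hg0
    · simp only [hu, hz, if_false]
      exact div_ne_zero (hGne z hz) (pow_ne_zero _ hz)
  have hGu : ∀ z, G z = z ^ m * u z := by
    intro z
    by_cases hz : z = 0
    · have := hgm.self_of_nhds
      subst hz
      simpa [hu] using this
    · simp only [hu, hz, if_false]
      field_simp
  have hud : Differentiable ℂ u := by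
    intro z
    by_cases hz : z = 0
    · subst hz
      refine hg.differentiableAt.congr_of_eventuallyEq ?_
      filter_upwards [hgm] with y hy
      by_cases hy0 : y = 0
      · simp [hu, hy0]
      · simp only [hu, hy0, if_false, hy, sub_zero, smul_eq_mul]
        field_simp
    · refine ((hGd z).div (differentiableAt_pow m) (pow_ne_zero _ hz)).congr_of_eventuallyEq ?_
      filter_upwards [isOpen_ne.mem_nhds hz] with y hy
      simp [hu, hy]
  set k : ℂ → ℂ := fun ζ => (G ζ⁻¹)⁻¹ with hk
  have hka : AnalyticAt ℂ k 0 := by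
    apply Complex.analyticAt_of_differentiable_on_punctured_nhds_of_continuousAt
    · filter_upwards [self_mem_nhdsWithin] with ζ hζ
      exact ((hGd _).comp ζ (differentiableAt_inv hζ)).inv (hGne _ (inv_ne_zero hζ))
    · rw [← continuousWithinAt_compl_self]
      unfold ContinuousWithinAt
      have : k 0 = 0 := by simp [hk, hG0]
      rw [this]
      exact tendsto_inv₀_cobounded.comp (hGt.comp tendsto_inv₀_nhdsNE_zero)
  obtain ⟨n, r, hr, hr0, hrn⟩ := hka.exists_eventuallyEq_pow_smul_nonzero_iff.2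
    (hne fun z hz => inv_ne_zero (hGne _ (inv_ne_zero hz)))
  have hinf : ∀ᶠ z in cobounded ℂ, z ≠ 0 ∧ (G z)⁻¹ = z⁻¹ ^ n * r z⁻¹ := by
    filter_upwards [tendsto_inv₀_cobounded.eventually hrn, eventually_ne_cobounded (0 : ℂ)]
      with z hz hz0
    exact ⟨hz0, by simpa [hk] using hz⟩
  have hrt : Tendsto (fun z : ℂ => r z⁻¹) (cobounded ℂ) (𝓝 (r 0)) :=
    hr.continuousAt.tendsto.comp tendsto_inv₀_cobounded
  have hconst : ∃ c, ∀ z, u z = c := by
    rcases le_total m n with hmn | hmn
    · obtain ⟨j, rfl⟩ := Nat.exists_eq_add_of_le hmn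
      have t : Tendsto (fun z => (u z)⁻¹) (cobounded ℂ) (𝓝 (0 ^ j * r 0)) := by
        refine ((tendsto_inv₀_cobounded.pow j).mul hrt).congr' ?_
        filter_upwards [hinf] with z ⟨hz, hz'⟩
        rw [hGu, mul_inv, pow_add, ← inv_pow, mul_assoc] at hz'
        exact (mul_left_cancel₀ (pow_ne_zero _ (inv_ne_zero hz)) hz').symm
      have := fun z => (hud.inv hu0).apply_eq_of_tendsto_cocompact z
        (by rw [← cobounded_eq_cocompact]; exact t)
      exact ⟨(0 ^ j * r 0)⁻¹, fun z => by rw [← this z, Pi.inv_apply, inv_inv]⟩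
    · obtain ⟨j, rfl⟩ := Nat.exists_eq_add_of_le hmn
      have t : Tendsto u (cobounded ℂ) (𝓝 (0 ^ j * (r 0)⁻¹)) := by
        refine ((tendsto_inv₀_cobounded.pow j).mul (hrt.inv₀ hr0)).congr' ?_
        filter_upwards [hinf] with z ⟨hz, hz'⟩
        rw [hGu, mul_inv, pow_add, mul_inv, ← inv_pow, mul_assoc] at hz'
        have := mul_left_cancel₀ (pow_ne_zero _ (inv_ne_zero hz)) hz'
        rw [← this, inv_pow, mul_inv, inv_inv, inv_inv,
          inv_mul_cancel_left₀ (pow_ne_zero _ hz)]
      exact ⟨_, fun z => hud.apply_eq_of_tendsto_cocompact z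
        (by rw [← cobounded_eq_cocompact]; exact t)⟩
  obtain ⟨c, hc⟩ := hconst
  have hc0 : c ≠ 0 := hc 0 ▸ hu0 0
  have hm : m = 1 := by
    rcases m with _ | _ | m
    · exfalso
      have := hGu 0
      rw [hG0, hc, pow_zero, one_mul] at this
      exact hc0 this.symm
    · rfl
    · exfalso
      have hp := Complex.isPrimitiveRoot_exp (m + 1 + 1) (by omega)
      have h1 : G (Complex.exp (2 * Real.pi * Complex.I / (m + 1 + 1 : ℕ))) = G 1 := by
        rw [hGu, hGu 1, hc, hc, hp.pow_eq_one, one_pow]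
      exact hp.ne_one (by omega) (hi (sub_left_injective h1))
  refine ⟨c, H 0, hc0, fun z => ?_⟩
  have := hGu z
  rw [hm, hc, pow_one] at this
  simp only [hG] at this
  linear_combination this

end Crest.Agent.R193
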