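import Mathlib

/-!
# R193/W/Hol: if `F` and `F²` are harmonic then `F` is holomorphic or antiholomorphic
-/

set_option autoImplicit false
open Set Metric Filter Topology InnerProductSpace
open scoped ComplexConjugate

namespace Crest.Agent.R193

/-- twice the Wirtinger derivative -/
noncomputable def wD (G : ℂ → ℂ) (z : ℂ) : ℂ :=
  fderiv ℝ G z 1 - Complex.I * fderiv ℝ G z Complex.I

theorem wD_analytic {G : ℂ → ℂ} {x : ℂ} (h : HarmonicAt G x) : AnalyticAt ℂ (wD G) x := by
  have h1 := HarmonicAt.analyticAt_complex_partial (h.comp_CLM Complex.reCLM)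
  have h2 := HarmonicAt.analyticAt_complex_partial (h.comp_CLM Complex.imCLM)
  have h3 := h1.add ((analyticAt_const (v := Complex.I)).mul h2)
  refine h3.congr ?_
  filter_upwards [h.eventually] with z hz
  have hd : DifferentiableAt ℝ G z := hz.1.differentiableAt (by norm_num)
  have e1 : fderiv ℝ (Complex.reCLM ∘ G) z = Complex.reCLM ∘L fderiv ℝ G z :=
    (Complex.reCLM.hasFDerivAt.comp z hd.hasFDerivAt).fderiv
  have e2 : fderiv ℝ (Complex.imCLM ∘ G) z = Complex.imCLM ∘L fderiv ℝ G z :=
    (Complex.imCLM.hasFDerivAt.comp z hd.hasFDerivAt).fderiv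
  simp only [Pi.add_apply, Pi.mul_apply, e1, e2, wD, ContinuousLinearMap.comp_apply,
    Complex.reCLM_apply, Complex.imCLM_apply]
  generalize fderiv ℝ G z 1 = a
  generalize fderiv ℝ G z Complex.I = b
  apply Complex.ext
  · simp
  · simp; ring

theorem w_fderiv_conj {G : ℂ → ℂ} {z : ℂ} (hd : DifferentiableAt ℝ G z) (d : ℂ) :
    fderiv ℝ (fun z => conj (G z)) z d = conj (fderiv ℝ G z d) := by
  have e : fderiv ℝ (Complex.conjCLE.toContinuousLinearMap ∘ G) z =
      Complex.conjCLE.toContinuousLinearMap ∘L fderiv ℝ G z :=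
    (Complex.conjCLE.toContinuousLinearMap.hasFDerivAt.comp z hd.hasFDerivAt).fderiv
  have e' : (fun z => conj (G z)) = Complex.conjCLE.toContinuousLinearMap ∘ G := by
    funext y; simp
  rw [e', e]
  simp

theorem hol_or_anti {Ω : Set ℂ} (hΩ : IsOpen Ω) (hc : IsPreconnected Ω) {F : ℂ → ℂ}
    (h1 : ∀ x ∈ Ω, HarmonicAt F x) (h2 : ∀ x ∈ Ω, HarmonicAt (fun z => F z ^ 2) x) :
    DifferentiableOn ℂ F Ω ∨ DifferentiableOn ℂ (fun z => conj (F z)) Ω := by
  have hI : Complex.I * Complex.I = -1 := Complex.I_mul_I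
  have hd : ∀ x ∈ Ω, DifferentiableAt ℝ F x := fun x hx =>
    (h1 x hx).1.differentiableAt (by norm_num)
  have h3 : ∀ x ∈ Ω, HarmonicAt (fun z => conj (F z)) x := by
    intro x hx
    have e' : (fun z => conj (F z)) = Complex.conjCLE.toContinuousLinearMap ∘ F := by
      funext y; simp
    rw [e']
    exact (h1 x hx).comp_CLM _
  have hA : AnalyticOnNhd ℂ (wD F) Ω := fun x hx => wD_analytic (h1 x hx)
  have hB : AnalyticOnNhd ℂ (wD fun z => conj (F z)) Ω := fun x hx => wD_analytic (h3 x hx)
  have hS : AnalyticOnNhd ℂ (wD fun z => F z ^ 2) Ω := fun x hx => wD_analytic (h2 x hx)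
  have hsq : ∀ x ∈ Ω, wD (fun z => F z ^ 2) x = 2 * F x * wD F x := by
    intro x hx
    have e : (fun z => F z ^ 2) = fun z => F z * F z := funext fun z => sq _
    have := ((hd x hx).hasFDerivAt.fun_mul (hd x hx).hasFDerivAt).fderiv
    simp only [wD, e, this, add_apply, smul_apply, smul_eq_mul]
    ring
  have hAB : ∀ x ∈ Ω, wD F x * wD (fun z => conj (F z)) x = 0 := by
    intro x hx
    by_cases hA0 : wD F x = 0
    · rw [hA0, zero_mul]
    have hev : (fun z => wD (fun z => F z ^ 2) z / (2 * wD F z)) =ᶠ[𝓝 x] F := by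
      filter_upwards [hΩ.mem_nhds hx, (hA x hx).continuousAt.eventually_ne hA0] with z hz hz0
      rw [hsq z hz]
      field_simp
    have han : AnalyticAt ℂ F x :=
      ((hS x hx).div (analyticAt_const.mul (hA x hx)) (mul_ne_zero two_ne_zero hA0)).congr hev
    have hcr := (differentiableAt_complex_iff_differentiableAt_real.1 han.differentiableAt).2
    apply mul_eq_zero_of_right
    simp only [wD, w_fderiv_conj (hd x hx), hcr, smul_eq_mul, map_mul, Complex.conj_I]
    linear_combination (conj (fderiv ℝ F x 1)) * hI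
  rcases AnalyticOnNhd.eq_zero_or_eq_zero_of_mul_eq_zero hA hB hAB hc with h0 | h0
  · right
    intro x hx
    refine (differentiableAt_complex_iff_differentiableAt_real.2
      ⟨(h3 x hx).1.differentiableAt (by norm_num), ?_⟩).differentiableWithinAt
    have := congrArg conj (h0 x hx)
    simp only [wD, map_sub, map_mul, Complex.conj_I, map_zero] at this
    simp only [w_fderiv_conj (hd x hx), smul_eq_mul]
    linear_combination (-Complex.I) * this + (conj (fderiv ℝ F x Complex.I)) * hI
  · left
    intro x hx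
    refine (differentiableAt_complex_iff_differentiableAt_real.2
      ⟨hd x hx, ?_⟩).differentiableWithinAt
    have := congrArg conj (h0 x hx)
    simp only [wD, w_fderiv_conj (hd x hx), map_sub, map_mul, Complex.conj_I, map_zero,
      Complex.conj_conj] at this
    simp only [smul_eq_mul]
    linear_combination (-Complex.I) * this + (fderiv ℝ F x Complex.I) * hI

end Crest.Agent.R193
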